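import Vale.Agent.Lib.P028A.Div

/-!
P028: the weak inhomogeneous Duffin-Schaeffer problem for every real shift: divisor-weighted
divergence, support with boundedly many divisors, and a gcd-sum criterion.
-/

namespace Vale.Agent.Results.P028.AllShifts

open Vale.Agent.P028A MeasureTheory Finset

/-- For every real `γ` and every nonnegative `ψ` the set `W γ ψ` has full measure if
(1) the sum of `ψ q / (τ q * (1 + ⌊log₂ (τ q)⌋) ^ 2)` diverges (`τ` = number of divisors), or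
(2) the sum of `φ q / q * ψ q` diverges and `τ` is bounded on the support of `ψ`, or
(3) the gcd-sum criterion holds for some `θ ≤ min ψ (1/2)`. -/
theorem result (γ : ℝ) (ψ : ℕ → ℝ) (hψ : ∀ q, 0 ≤ ψ q) :
    ((¬ Summable fun q : ℕ =>
        ψ q / ((q.divisors.card : ℝ) * (1 + (Nat.log 2 q.divisors.card : ℝ)) ^ 2)) →
      volume (W γ ψ)ᶜ = 0) ∧
    (∀ T : ℕ, (∀ q : ℕ, 1 ≤ q → ψ q ≠ 0 → q.divisors.card ≤ T) →
      (¬ Summable fun q : ℕ => (Nat.totient q : ℝ) / q * ψ q) → volume (W γ ψ)ᶜ = 0) ∧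
    (∀ θ : ℕ → ℝ, (∀ q, 0 ≤ θ q ∧ θ q ≤ 1 / 2 ∧ θ q ≤ ψ q) →
      (∀ (K : ℕ) (ε : ℝ), 0 < ε → ∃ F : Finset ℕ, (∀ q ∈ F, K ≤ q ∧ 1 ≤ q) ∧
        0 < ∑ q ∈ F, θ q ∧
        ∑ q ∈ F, θ q + ∑ r ∈ F, ∑ q ∈ F.filter (fun q => q < r), θ r * Nat.gcd q r / r
          ≤ ε * (∑ q ∈ F, θ q) ^ 2) →
      volume (W γ ψ)ᶜ = 0) :=
  ⟨fun h => main_div γ ψ hψ h, fun T hT h => main_bdd γ ψ hψ T hT h,
    fun θ hθ H => criterion γ ψ θ (fun q => (hθ q).1) (fun q => (hθ q).2.1)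
      (fun q => (hθ q).2.2) H⟩

end Vale.Agent.Results.P028.AllShifts
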