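import Vale.Agent.Lib.P028.Fin

/-!
P028, hand-in: inhomogeneous approximation with a moving target, no monotonicity and no condition
on the target: full measure under divergence over integers with few divisors, or over a support
with bounded normalised gcd sums.
-/

namespace Vale.Agent.Results.P028.ConstantCriterion

open Vale.Agent.P028 MeasureTheory

/-- Let `γ_q` be arbitrary reals and `ψ ≥ 0`. The set `W γ ψ` has full measure if one of these holds: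
(1) `∑_{τ(q) ≤ T} min (ψ(q)) (1/2) ≥ c T` for some `c > 0` and arbitrarily large `T`;
(2) the sum of `φ(q) ψ(q) / q` over the `q` with at most `K` divisors diverges, for some `K`;
(3) `∑_{q ∈ S} ψ(q) = ∞` for a set `S` with `∑_{m ∈ S, m < q} gcd(m, q) ≤ K q` for all `q ∈ S`;
(4) `∑ ψ(q) / τ(q) ^ (1 + ε) = ∞` for some `ε > 0`;
(5) a criterion with gcd sums and a constant `C` for some `θ ≤ ψ`. -/
theorem result (γ ψ : ℕ → ℝ) (hψ : ∀ q, 0 ≤ ψ q) :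
    (∀ c : ℝ, 0 < c → (∀ T₀ : ℕ, ∃ T : ℕ, T₀ ≤ T ∧ ∃ F : Finset ℕ,
        (∀ q ∈ F, 1 ≤ q ∧ q.divisors.card ≤ T) ∧ c * T ≤ ∑ q ∈ F, min (ψ q) (1 / 2)) →
      volume (W γ ψ)ᶜ = 0) ∧
    (∀ K : ℕ, ¬ Summable (fun q : ℕ =>
        if q.divisors.card ≤ K then (Nat.totient q : ℝ) / q * ψ q else 0) →
      volume (W γ ψ)ᶜ = 0) ∧
    (∀ (S : Set ℕ) (K : ℝ),
      (∀ q ∈ S, ∑ m ∈ Finset.range q, S.indicator (fun m => (Nat.gcd m q : ℝ)) m ≤ K * q) →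
      ¬ Summable (S.indicator ψ) → volume (W γ ψ)ᶜ = 0) ∧
    (∀ ε : ℝ, 0 < ε → ¬ Summable (fun q : ℕ => ψ q / ((q.divisors.card : ℝ) ^ (1 + ε))) →
      volume (W γ ψ)ᶜ = 0) ∧
    (∀ (θ : ℕ → ℝ) (C : ℝ), (∀ q, 0 ≤ θ q ∧ θ q ≤ ψ q) →
      (∀ N₀ : ℕ, ∃ S : Finset ℕ, (∀ q ∈ S, N₀ ≤ q ∧ 1 ≤ q) ∧ 1 ≤ ∑ q ∈ S, θ q ∧
        ∑ q ∈ S, θ q / q * ∑ m ∈ S with m < q, (Nat.gcd m q : ℝ) ≤ C * (∑ q ∈ S, θ q) ^ 2) →
      volume (W γ ψ)ᶜ = 0) :=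
  ⟨fun c hc H => W_full γ ψ (main_T γ ψ hψ c hc H),
    fun K h => W_full γ ψ (main_bdd γ ψ hψ K h),
    fun S K h1 h2 => W_full γ ψ (main_gcd γ ψ hψ S K h1 h2),
    fun _ hε h => W_full γ ψ (main_tau γ ψ hψ hε h),
    fun θ C hθ h => W_full γ ψ (crit_theta γ ψ θ (fun q => (hθ q).1) (fun q => (hθ q).2) C h)⟩

end Vale.Agent.Results.P028.ConstantCriterion
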